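import Vale.Agent.P235.H134.Grid.Stmts

/-!
# Assembly: the excluded grid theorem and the families omitting a grid, from the rows
-/

namespace Vale.Agent.P235.H134

open SimpleGraph

theorem isMinor_comp_equiv {W W' V : Type} {H : SimpleGraph W} {H' : SimpleGraph W'}
    {G : SimpleGraph V} (e : W' → W) (he : Function.Injective e)
    (hadj : ∀ a b, H'.Adj a b → H.Adj (e a) (e b)) (h : IsMinor H G) : IsMinor H' G := by
  obtain ⟨μ, h1, h2, h3⟩ := h
  exact ⟨fun a => μ (e a), fun a => h1 _, fun a b hab => h2 _ _ (fun h => hab (he h)),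
    fun a b hab => h3 _ _ (hadj a b hab)⟩

/-- A clique minor with `r * r` vertices contains the grid. -/
theorem grid_of_clique {V : Type} {G : SimpleGraph V} (r : ℕ)
    (h : IsMinor (⊤ : SimpleGraph (Fin (r * r))) G) : IsMinor (grid r) G :=
  isMinor_comp_equiv (fun x : Fin r × Fin r => finProdFinEquiv x) finProdFinEquiv.injective
    (fun _ _ hab => by
      rw [top_adj]
      exact fun h => hab.ne (finProdFinEquiv.injective h)) h

theorem grid_small {V : Type} {G : SimpleGraph V} (hG : G.Connected) (r : ℕ) (hr : r < 2) :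
    IsMinor (grid r) G := by
  obtain ⟨v⟩ := hG.nonempty
  refine ⟨fun _ => {v}, fun _ => ?_, fun a b hab => absurd ?_ hab, fun a b hab => absurd ?_ hab.ne⟩
  · have : Subsingleton ({v} : Set V) := by infer_instance
    exact { preconnected := fun a b => (Subsingleton.elim a b) ▸ Reachable.refl a, nonempty := ⟨⟨v, rfl⟩⟩ }
  · exact Prod.ext (Fin.ext (by omega)) (Fin.ext (by omega))
  · exact Prod.ext (Fin.ext (by omega)) (Fin.ext (by omega))

theorem treewidthLE_mono {V : Type} {G : SimpleGraph V} {a b : ℕ} (hab : a ≤ b)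
    (h : TreewidthLE G a) : TreewidthLE G b := by
  obtain ⟨ι, hι, T, B, h1, h2, h3, h4, h5⟩ := h
  exact ⟨ι, hι, T, B, h1, h2, h3, h4, fun t => (h5 t).trans (by omega)⟩

/-- The excluded grid theorem from the mesh lemma, the splitting lemma and grid or clique. -/
theorem excludedGrid_of (hMesh : MeshStmt) (hSplit : SplitStmt) (hGC : GridOrCliqueStmt) :
    ExcludedGridStmt := by
  intro r
  rcases Nat.lt_or_ge r 2 with hr | hr
  · exact ⟨0, fun V _ G hG _ => grid_small hG r hr⟩
  obtain ⟨k, hk, h⟩ := hGC r (r * r) hr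
  refine ⟨(r * r + 1) * (2 * k) + k, fun V _ G hG hw => ?_⟩
  have h1 : k ≤ (r * r + 1) * (2 * k) := by nlinarith
  have h2 := hSplit k (r * r) hk V G (hMesh k _ hk h1 V G hG hw)
  rcases h V G h2 with h3 | h3
  · exact h3
  · exact grid_of_clique r h3

theorem grid_connected {r : ℕ} (hr : 1 ≤ r) : (grid r).Connected := by
  have : NeZero r := ⟨by omega⟩
  have h : (pathGraph r).Connected := by
    obtain ⟨n, rfl⟩ : ∃ n, r = n + 1 := ⟨r - 1, by omega⟩
    exact pathGraph_connected n
  exact h.boxProd h

/-- The Gupta–Newman–Rabinovich–Sinclair conjecture for every minor-closed family omitting a grid,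
from the excluded grid theorem and bounded treewidth. -/
theorem omittedGrid_of (hMinor : MinorStmt) (hEG : ExcludedGridStmt) (hTw : TwBoundedStmt) :
    OmittedGridStmt := by
  rintro F hF ⟨r, hr, hFr⟩
  obtain ⟨w, hw⟩ := hEG r
  obtain ⟨C, hC⟩ := hTw w
  refine ⟨C, fun V _ G hG hFG => hC V G hG ?_⟩
  by_contra hcon
  exact hFr (hMinor F hF V (Fin r × Fin r) G (grid r) hG (grid_connected hr) (hw V G hG hcon) hFG)

end Vale.Agent.P235.H134
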