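import Vale.Agent.P235.H134.Grid.Stmts

/-!
# Sparse bipartite graphs have large independent pairs
-/

namespace Vale.Agent.P235.H134

open Finset

theorem bip : BipStmt := by
  classical
  intro q M c α β _ _ E hM hq hc hc0 hE
  have hE' : ∀ a, c * (univ.filter (fun b => E a b)).card ≤ M := by
    intro a
    have h := hE a
    rw [Set.ncard_eq_toFinset_card'] at h
    have heq : ({b | E a b} : Set β).toFinset = univ.filter (fun b => E a b) := by
      ext b; simp
    rwa [heq] at h
  set deg : β → ℕ := fun b => (univ.filter (fun a => E a b)).card with hdeg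
  have hsum : c * ∑ b, deg b ≤ Fintype.card α * M := by
    have h1 : ∑ b, deg b = ∑ a, (univ.filter (fun b => E a b)).card := by
      simp only [hdeg, Finset.card_filter]
      exact Finset.sum_comm
    rw [h1, Finset.mul_sum]
    calc ∑ a, c * (univ.filter (fun b => E a b)).card ≤ ∑ _a : α, M :=
          Finset.sum_le_sum (fun a _ => hE' a)
      _ = Fintype.card α * M := by simp [Finset.card_univ]
  set B0 : Finset β := univ.filter (fun b => 2 * q * deg b ≤ Fintype.card α) with hB0
  have hcard : q ≤ B0.card := by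
    by_contra hlt
    push Not at hlt
    set B1 : Finset β := univ.filter (fun b => ¬ 2 * q * deg b ≤ Fintype.card α) with hB1
    have h2 : B0.card + B1.card = M := by
      rw [hB0, hB1, Finset.card_filter_add_card_filter_not, Finset.card_univ, hM]
    have h3 : B1.card * (Fintype.card α + 1) ≤ 2 * q * ∑ b, deg b := by
      calc B1.card * (Fintype.card α + 1) = ∑ _b ∈ B1, (Fintype.card α + 1) := by
            rw [Finset.sum_const, smul_eq_mul]
        _ ≤ ∑ b ∈ B1, 2 * q * deg b := by
            refine Finset.sum_le_sum (fun b hb => ?_)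
            have := (Finset.mem_filter.1 hb).2
            omega
        _ ≤ ∑ b, 2 * q * deg b :=
            Finset.sum_le_sum_of_subset (Finset.subset_univ _)
        _ = 2 * q * ∑ b, deg b := by rw [Finset.mul_sum]
    have h4 : M < 2 * B1.card := by omega
    have h5 : c * (2 * q * ∑ b, deg b) ≤ 2 * q * (Fintype.card α * M) := by
      calc c * (2 * q * ∑ b, deg b) = 2 * q * (c * ∑ b, deg b) := by ring
        _ ≤ 2 * q * (Fintype.card α * M) := Nat.mul_le_mul_left _ hsum
    have h6 : c * (B1.card * (Fintype.card α + 1)) ≤ 2 * q * (Fintype.card α * M) :=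
      (Nat.mul_le_mul_left c h3).trans h5
    have h7 : 4 * q * (B1.card * (Fintype.card α + 1)) ≤ c * (B1.card * (Fintype.card α + 1)) :=
      Nat.mul_le_mul_right _ hc
    have hq0 : 0 < q := by omega
    have h8 : 2 * q * (2 * B1.card * (Fintype.card α + 1)) ≤ 2 * q * (Fintype.card α * M) := by
      calc 2 * q * (2 * B1.card * (Fintype.card α + 1))
          = 4 * q * (B1.card * (Fintype.card α + 1)) := by ring
        _ ≤ _ := h7.trans h6
    have h9 : 2 * B1.card * (Fintype.card α + 1) ≤ Fintype.card α * M :=
      Nat.le_of_mul_le_mul_left h8 (by omega)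
    have h10 : Fintype.card α * M ≤ Fintype.card α * (2 * B1.card) :=
      Nat.mul_le_mul_left _ h4.le
    have h11 : 2 * B1.card * (Fintype.card α + 1) = Fintype.card α * (2 * B1.card) + 2 * B1.card := by
      ring
    omega
  obtain ⟨H, hHB, hHq⟩ := Finset.exists_subset_card_eq hcard
  refine ⟨H, univ.filter (fun a => ∀ b ∈ H, ¬ E a b), hHq, ?_, fun a ha b hb =>
    (Finset.mem_filter.1 ha).2 b hb⟩
  rcases Nat.eq_zero_or_pos q with hq0 | hq0
  · have hH : H = ∅ := by rw [← Finset.card_eq_zero, hHq, hq0]
    have : univ.filter (fun a => ∀ b ∈ H, ¬ E a b) = (univ : Finset α) := by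
      rw [hH]; simp
    rw [this, Finset.card_univ]; omega
  · have h1 : (univ.filter (fun a => ¬ ∀ b ∈ H, ¬ E a b)).card ≤ ∑ b ∈ H, deg b := by
      have hsub : univ.filter (fun a => ¬ ∀ b ∈ H, ¬ E a b) ⊆
          H.biUnion (fun b => univ.filter (fun a => E a b)) := by
        intro a ha
        have := (Finset.mem_filter.1 ha).2
        push Not at this
        obtain ⟨b, hb, hab⟩ := this
        exact Finset.mem_biUnion.2 ⟨b, hb, Finset.mem_filter.2 ⟨Finset.mem_univ _, hab⟩⟩
      exact (Finset.card_le_card hsub).trans Finset.card_biUnion_le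
    have h2 : 2 * q * ∑ b ∈ H, deg b ≤ q * Fintype.card α := by
      rw [Finset.mul_sum]
      calc ∑ b ∈ H, 2 * q * deg b ≤ ∑ _b ∈ H, Fintype.card α :=
            Finset.sum_le_sum (fun b hb => (Finset.mem_filter.1 (hHB hb)).2)
        _ = q * Fintype.card α := by rw [Finset.sum_const, smul_eq_mul, hHq]
    have h3 : 2 * ∑ b ∈ H, deg b ≤ Fintype.card α := by
      have : q * (2 * ∑ b ∈ H, deg b) ≤ q * Fintype.card α := by
        calc q * (2 * ∑ b ∈ H, deg b) = 2 * q * ∑ b ∈ H, deg b := by ring
          _ ≤ _ := h2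
      exact Nat.le_of_mul_le_mul_left this hq0
    have h4 := Finset.card_filter_add_card_filter_not (s := (univ : Finset α))
      (fun a => ∀ b ∈ H, ¬ E a b)
    rw [Finset.card_univ] at h4
    omega

end Vale.Agent.P235.H134
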