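import Vale.Agent.P235.Comp.Defs

/-!
# Minors, grids, paths: definitions for the excluded grid theorem
-/

namespace Vale.Agent.P235.H134

open SimpleGraph

/-- `H` is a minor of `G`: there are pairwise disjoint connected (nonempty) branch sets `μ a` in
`G`, one for each vertex `a` of `H`, with an edge of `G` between `μ a` and `μ b` whenever `a` and
`b` are adjacent in `H`. -/
def IsMinor {W V : Type} (H : SimpleGraph W) (G : SimpleGraph V) : Prop :=
  ∃ μ : W → Set V, (∀ a, (G.induce (μ a)).Connected) ∧ (∀ a b, a ≠ b → Disjoint (μ a) (μ b)) ∧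
    ∀ a b, H.Adj a b → ∃ x ∈ μ a, ∃ y ∈ μ b, G.Adj x y

/-- The `r × r` grid. -/
def grid (r : ℕ) : SimpleGraph (Fin r × Fin r) := pathGraph r □ pathGraph r

/-- Contract the edge `uv` of `G`: the graph on `V ∖ {v}` in which `u` has become adjacent to the
former neighbours of `v` (no loops, no parallel edges). -/
def contractEdge {V : Type} (G : SimpleGraph V) (u v : V) : SimpleGraph {x : V // x ≠ v} where
  Adj x y := x ≠ y ∧ (G.Adj x y ∨ (x.1 = u ∧ G.Adj v y) ∨ (y.1 = u ∧ G.Adj v x))
  symm := ⟨fun _ _ ⟨h, h'⟩ => ⟨h.symm, h'.elim (fun h => Or.inl h.symm)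
    (fun h => Or.inr (h.symm))⟩⟩
  loopless := ⟨fun _ h => h.1 rfl⟩

/-- A family of (finite, connected) graphs is minor-closed: it is closed under isomorphism and under
deleting a vertex, deleting an edge and contracting an edge, as long as the result is connected
(graphs are connected in this problem; for a family closed under these operations without the
connectedness restriction the condition holds all the more). -/
structure MinorClosed (F : ∀ V : Type, SimpleGraph V → Prop) : Prop where
  iso : ∀ (V W : Type) [Finite V] [Finite W] (G : SimpleGraph V) (H : SimpleGraph W),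
    Nonempty (G ≃g H) → F V G → F W H
  deleteVertex : ∀ (V : Type) [Finite V] (G : SimpleGraph V) (v : V),
    (G.induce {x | x ≠ v}).Connected → F V G → F {x // x ≠ v} (G.induce {x | x ≠ v})
  deleteEdge : ∀ (V : Type) [Finite V] (G : SimpleGraph V) (e : Sym2 V), e ∈ G.edgeSet →
    (G.deleteEdges {e}).Connected → F V G → F V (G.deleteEdges {e})
  contract : ∀ (V : Type) [Finite V] (G : SimpleGraph V) (u v : V), G.Adj u v →
    (contractEdge G u v).Connected → F V G → F {x // x ≠ v} (contractEdge G u v)

/-- A path of `G`, given by its vertices `f 0, f 1, …, f len`. -/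
structure Pth {V : Type} (G : SimpleGraph V) where
  /-- number of edges -/
  len : ℕ
  /-- the vertices (values beyond `len` are junk) -/
  f : ℕ → V
  adj : ∀ i < len, G.Adj (f i) (f (i + 1))
  inj : ∀ i ≤ len, ∀ j ≤ len, f i = f j → i = j

namespace Pth

variable {V : Type} {G : SimpleGraph V}

/-- The first vertex. -/
def fst (P : Pth G) : V := P.f 0

/-- The last vertex. -/
def lst (P : Pth G) : V := P.f P.len

/-- The set of vertices of a path. -/
def verts (P : Pth G) : Set V := {v | ∃ i ≤ P.len, P.f i = v}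

/-- `u v` (in one of the two orders) is an edge of the path. -/
def EdgeOf (P : Pth G) (u v : V) : Prop :=
  ∃ i < P.len, (P.f i = u ∧ P.f (i + 1) = v) ∨ (P.f i = v ∧ P.f (i + 1) = u)

/-- The path as a graph. -/
def graph (P : Pth G) : SimpleGraph V where
  Adj u v := P.EdgeOf u v
  symm := ⟨fun _ _ ⟨i, hi, h⟩ => ⟨i, hi, h.symm⟩⟩
  loopless := ⟨fun v ⟨i, hi, h⟩ => by
    rcases h with h | h <;> exact (P.adj i hi).ne (h.1.trans h.2.symm)⟩

/-- `P` is an `A`–`B` path: its first vertex is its only vertex in `A` and its last vertex is its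
only vertex in `B`. -/
def Joins (P : Pth G) (A B : Set V) : Prop :=
  P.f 0 ∈ A ∧ P.f P.len ∈ B ∧ (∀ i ≤ P.len, P.f i ∈ A → i = 0) ∧
    (∀ i ≤ P.len, P.f i ∈ B → i = P.len)

end Pth

/-- A family of pairwise disjoint `A`–`B` paths. -/
def IsLinkage {V : Type} {G : SimpleGraph V} {ι : Type} (A B : Set V) (P : ι → Pth G) : Prop :=
  (∀ i, (P i).Joins A B) ∧ ∀ i j, i ≠ j → Disjoint (P i).verts (P j).verts

/-- `G` contains `k` pairwise disjoint `A`–`B` paths. -/
def Linked {V : Type} (G : SimpleGraph V) (A B : Set V) (k : ℕ) : Prop :=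
  ∃ P : Fin k → Pth G, IsLinkage A B P

/-- Every walk of `G` from `A` to `B` meets `S`. -/
def Separates {V : Type} (G : SimpleGraph V) (A B S : Set V) : Prop :=
  ∀ a ∈ A, ∀ b ∈ B, ∀ w : G.Walk a b, ∃ x ∈ w.support, x ∈ S

/-- The output of the mesh lemma: a set `C`, pairwise disjoint connected sets `S i` (`i < m`)
outside `C`, and sets `A i ⊆ S i` such that for `i ≠ j` there are `k` disjoint paths from `A i` to
`A j` all of whose inner vertices lie in `C`. -/
def HasMesh {V : Type} (G : SimpleGraph V) (k m : ℕ) : Prop :=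
  ∃ (C : Set V) (S A : Fin m → Set V),
    (∀ i, Disjoint (S i) C) ∧ (∀ i j, i ≠ j → Disjoint (S i) (S j)) ∧
    (∀ i, (G.induce (S i)).Connected) ∧ (∀ i, A i ⊆ S i) ∧
    ∀ i j, i ≠ j → ∃ P : Fin k → Pth G, IsLinkage (A i) (A j) P ∧
      ∀ a t, 0 < t → t < (P a).len → (P a).f t ∈ C

end Vale.Agent.P235.H134
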