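import Vale.Agent.P235.H134.Grid.Final

/-!
# Graphs without a fixed planar minor
-/

namespace Vale.Agent.P235.H134

open SimpleGraph

theorem reachable_union {V X : Type} {G : SimpleGraph V} {K : SimpleGraph X} {ν : X → Set V}
    (h1 : ∀ a, (G.induce (ν a)).Connected)
    (h3 : ∀ a b, K.Adj a b → ∃ x ∈ ν a, ∃ y ∈ ν b, G.Adj x y) {S : Set X} {T : Set V}
    (hT : ∀ x ∈ S, ν x ⊆ T) {x y : S} (w : (K.induce S).Walk x y) :
    ∀ (u v : V) (hu : u ∈ ν x.1) (hv : v ∈ ν y.1),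
      (G.induce T).Reachable ⟨u, hT x.1 x.2 hu⟩ ⟨v, hT y.1 y.2 hv⟩ := by
  have hin : ∀ (x : S) (u v : V) (hu : u ∈ ν x.1) (hv : v ∈ ν x.1),
      (G.induce T).Reachable ⟨u, hT x.1 x.2 hu⟩ ⟨v, hT x.1 x.2 hv⟩ := by
    intro x u v hu hv
    exact ((h1 x.1).preconnected ⟨u, hu⟩ ⟨v, hv⟩).map (induceHomOfLE G (hT x.1 x.2)).toHom
  induction w with
  | nil => exact hin _
  | @cons a b c hab _ ih =>
    intro u v hu hv
    obtain ⟨p, hp, q, hq, hpq⟩ := h3 a.1 b.1 hab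
    refine (hin a u p hu hp).trans (Reachable.trans ?_ (ih q v hq hv))
    exact Adj.reachable (show (G.induce T).Adj ⟨p, hT a.1 a.2 hp⟩ ⟨q, hT b.1 b.2 hq⟩ from hpq)

theorem IsMinor.trans {W X V : Type} {H : SimpleGraph W} {K : SimpleGraph X} {G : SimpleGraph V}
    (h : IsMinor H K) (h' : IsMinor K G) : IsMinor H G := by
  obtain ⟨μ, a1, a2, a3⟩ := h
  obtain ⟨ν, b1, b2, b3⟩ := h'
  refine ⟨fun a => ⋃ x ∈ μ a, ν x, fun a => ?_, fun a b hab => ?_, fun a b hab => ?_⟩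
  · have hT : ∀ x ∈ μ a, ν x ⊆ ⋃ x ∈ μ a, ν x := fun x hx => Set.subset_biUnion_of_mem hx
    obtain ⟨⟨x0, hx0⟩⟩ := (a1 a).nonempty
    obtain ⟨⟨v0, hv0⟩⟩ := (b1 x0).nonempty
    have : Nonempty (⋃ x ∈ μ a, ν x : Set V) := ⟨⟨v0, hT x0 hx0 hv0⟩⟩
    refine ⟨fun u v => ?_⟩
    obtain ⟨u, hu⟩ := u
    obtain ⟨v, hv⟩ := v
    obtain ⟨x, hx, hux⟩ := Set.mem_iUnion₂.1 hu
    obtain ⟨y, hy, hvy⟩ := Set.mem_iUnion₂.1 hv
    obtain ⟨w⟩ := (a1 a).preconnected ⟨x, hx⟩ ⟨y, hy⟩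
    exact reachable_union b1 b3 hT w u v hux hvy
  · rw [Set.disjoint_left]
    intro z hz hz'
    obtain ⟨x, hx, hzx⟩ := Set.mem_iUnion₂.1 hz
    obtain ⟨y, hy, hzy⟩ := Set.mem_iUnion₂.1 hz'
    by_cases hxy : x = y
    · subst hxy
      exact Set.disjoint_left.1 (a2 a b hab) hx hy
    · exact Set.disjoint_left.1 (b2 x y hxy) hzx hzy
  · obtain ⟨x, hx, y, hy, hxy⟩ := a3 a b hab
    obtain ⟨p, hp, q, hq, hpq⟩ := b3 x y hxy
    exact ⟨p, Set.mem_iUnion₂.2 ⟨x, hx, hp⟩, q, Set.mem_iUnion₂.2 ⟨y, hy, hq⟩, hpq⟩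

/-- Graphs without a fixed planar minor. -/
theorem excludedPlanar (W : Type) [Finite W] (H : SimpleGraph W) (hH : Planar H) :
    ∃ C : ℝ, ∀ (V : Type) [Finite V] (G : SimpleGraph V), G.Connected → ¬ IsMinor H G →
      DistortionLE G C := by
  obtain ⟨r, _, hr⟩ := H205.planar W H hH
  obtain ⟨w, hw⟩ := excludedGrid r
  obtain ⟨C, hC⟩ := H957.tw_bounded w
  refine ⟨C, fun V _ G hG hn => hC V G hG ?_⟩
  by_contra hcon
  exact hn (hr.trans (hw V G hG hcon))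

end Vale.Agent.P235.H134
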