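import Vale.Agent.P235.H134.Grid.Stmts

/-!
# A minor-closed family contains the connected minors of its connected members
-/

namespace Vale.Agent.P235.H134

open SimpleGraph

theorem reachable_of_map {α β : Type} {A : SimpleGraph α} {B : SimpleGraph β} (f : α → β)
    (hf : ∀ x y, A.Adj x y → f x = f y ∨ B.Adj (f x) (f y)) {x y : α} (h : A.Reachable x y) :
    B.Reachable (f x) (f y) := by
  obtain ⟨w⟩ := h
  induction w with
  | nil => exact Reachable.refl _
  | cons hadj _ ih =>
    rcases hf _ _ hadj with h | h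
    · rw [h]; exact ih
    · exact h.reachable.trans ih

theorem connected_of_map {α β : Type} {A : SimpleGraph α} {B : SimpleGraph β} (f : α → β)
    (hs : Function.Surjective f) (hf : ∀ x y, A.Adj x y → f x = f y ∨ B.Adj (f x) (f y))
    (hA : A.Connected) : B.Connected := by
  have := hA.nonempty
  have : Nonempty β := this.map f
  refine ⟨fun a b => ?_⟩
  obtain ⟨x, rfl⟩ := hs a
  obtain ⟨y, rfl⟩ := hs b
  exact reachable_of_map f hf (hA.preconnected x y)

/-- The quotient graph of `G` by the fibres of `φ`. -/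
def quot {V W : Type} (G : SimpleGraph V) (φ : V → W) : SimpleGraph W where
  Adj a b := a ≠ b ∧ ∃ x y, φ x = a ∧ φ y = b ∧ G.Adj x y
  symm := ⟨fun _ _ ⟨h, x, y, hx, hy, hxy⟩ => ⟨h.symm, y, x, hy, hx, hxy.symm⟩⟩
  loopless := ⟨fun _ h => h.1 rfl⟩

/-- Branch sets can be made to cover a connected graph. -/
theorem exists_model {V W : Type} [Finite V] {G : SimpleGraph V} {H : SimpleGraph W}
    (hG : G.Connected) (hW : Nonempty W) (h : IsMinor H G) :
    ∃ φ : V → W, (∀ a, (G.induce {x | φ x = a}).Connected) ∧ H ≤ quot G φ := by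
  classical
  obtain ⟨μ, h1, h2, h3⟩ := h
  induction hn : ((⋃ a, μ a)ᶜ : Set V).ncard using Nat.strong_induction_on generalizing μ with
  | _ n ih =>
    by_cases hun : (⋃ a, μ a) = Set.univ
    · have hcov : ∀ x : V, ∃ a, x ∈ μ a := fun x => by
        have : x ∈ ⋃ a, μ a := by rw [hun]; trivial
        exact Set.mem_iUnion.1 this
      choose φ hφ using hcov
      have huniq : ∀ x a, x ∈ μ a → φ x = a := by
        intro x a hxa
        by_contra hne
        exact Set.disjoint_left.1 (h2 _ _ hne) (hφ x) hxa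
      have hfib : ∀ a, {x | φ x = a} = μ a := by
        intro a
        ext x
        exact ⟨fun hx => by rw [← (show φ x = a from hx)]; exact hφ x, fun hx => huniq x a hx⟩
      refine ⟨φ, fun a => by rw [hfib]; exact h1 a, fun a b hab => ?_⟩
      obtain ⟨x, hx, y, hy, hxy⟩ := h3 a b hab
      exact ⟨hab.ne, x, y, huniq x a hx, huniq y b hy, hxy⟩
    · obtain ⟨y0, hy0⟩ : ∃ y, y ∉ ⋃ a, μ a := by
        by_contra hcon
        push Not at hcon
        exact hun (Set.eq_univ_of_forall hcon)
      obtain ⟨a0⟩ := hW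
      obtain ⟨⟨x0, hx0⟩⟩ := (h1 a0).nonempty
      obtain ⟨w⟩ := hG.preconnected x0 y0
      obtain ⟨d, _, hd1, hd2⟩ := w.exists_boundary_dart (⋃ a, μ a)
        (Set.mem_iUnion.2 ⟨a0, hx0⟩) hy0
      obtain ⟨a, ha⟩ := Set.mem_iUnion.1 hd1
      have hd2' : ∀ b, d.snd ∉ μ b := fun b hb => hd2 (Set.mem_iUnion.2 ⟨b, hb⟩)
      have hμa : (G.induce (μ a ∪ {d.fst, d.snd})).Connected :=
        induce_union_connected (h1 a).preconnected
          (induce_pair_connected_of_adj d.adj).preconnected ⟨d.fst, ha, Or.inl rfl⟩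
      have hset : μ a ∪ {d.fst, d.snd} = insert d.snd (μ a) := by
        ext z
        simp only [Set.mem_union, Set.mem_insert_iff, Set.mem_singleton_iff]
        constructor
        · rintro (hz | rfl | rfl)
          · exact Or.inr hz
          · exact Or.inr ha
          · exact Or.inl rfl
        · rintro (rfl | hz)
          · exact Or.inr (Or.inr rfl)
          · exact Or.inl hz
      rw [hset] at hμa
      set ν : W → Set V := fun b => if b = a then insert d.snd (μ a) else μ b with hν
      have hνa : ν a = insert d.snd (μ a) := by simp [hν]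
      have hνb : ∀ b, b ≠ a → ν b = μ b := fun b hb => by simp [hν, hb]
      have hsub : ∀ b, μ b ⊆ ν b := by
        intro b
        by_cases hb : b = a
        · subst hb; rw [hνa]; exact Set.subset_insert _ _
        · rw [hνb b hb]
      have hlt : ((⋃ b, ν b)ᶜ : Set V).ncard < n := by
        rw [← hn]
        refine Set.ncard_lt_ncard ⟨?_, ?_⟩ (Set.toFinite _)
        · exact Set.compl_subset_compl.2 (Set.iUnion_mono hsub)
        · intro hcon
          have : d.snd ∈ ((⋃ b, ν b)ᶜ : Set V) := hcon hd2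
          exact this (Set.mem_iUnion.2 ⟨a, by rw [hνa]; exact Set.mem_insert _ _⟩)
      refine ih _ hlt ν ?_ ?_ ?_ rfl
      · intro b
        by_cases hb : b = a
        · subst hb; rw [hνa]; exact hμa
        · rw [hνb b hb]; exact h1 b
      · intro b c hbc
        by_cases hb : b = a
        · subst hb
          rw [hνa, hνb c hbc.symm, Set.disjoint_insert_left]
          exact ⟨hd2' c, h2 _ _ hbc⟩
        · by_cases hc : c = a
          · subst hc
            rw [hνa, hνb b hb, Set.disjoint_insert_right]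
            exact ⟨hd2' b, h2 _ _ hbc⟩
          · rw [hνb b hb, hνb c hc]
            exact h2 _ _ hbc
      · intro b c hbc
        obtain ⟨x, hx, y, hy, hxy⟩ := h3 b c hbc
        exact ⟨x, hsub b hx, y, hsub c hy, hxy⟩

/-- The contraction map. -/
noncomputable def cmap {V : Type} {u v : V} (huv : u ≠ v) (x : V) : {x : V // x ≠ v} :=
  open Classical in if h : x = v then ⟨u, huv⟩ else ⟨x, h⟩

theorem cmap_self {V : Type} {u v : V} (huv : u ≠ v) : cmap huv v = ⟨u, huv⟩ := by
  simp [cmap]

theorem cmap_of_ne {V : Type} {u v : V} (huv : u ≠ v) {x : V} (h : x ≠ v) :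
    cmap huv x = ⟨x, h⟩ := by
  simp [cmap, h]

theorem cmap_adj {V : Type} {G : SimpleGraph V} {u v : V} (huv : u ≠ v) (x y : V)
    (h : G.Adj x y) : cmap huv x = cmap huv y ∨ (contractEdge G u v).Adj (cmap huv x) (cmap huv y) := by
  by_cases heq : cmap huv x = cmap huv y
  · exact Or.inl heq
  refine Or.inr ⟨heq, ?_⟩
  by_cases hx : x = v
  · by_cases hy : y = v
    · exact absurd (hx.trans hy.symm) h.ne
    · rw [cmap_of_ne huv hy]
      subst hx
      rw [cmap_self]
      exact Or.inr (Or.inl ⟨rfl, h⟩)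
  · by_cases hy : y = v
    · subst hy
      rw [cmap_of_ne huv hx, cmap_self]
      exact Or.inr (Or.inr ⟨rfl, h.symm⟩)
    · rw [cmap_of_ne huv hx, cmap_of_ne huv hy]
      exact Or.inl h

theorem cmap_fib {V W : Type} {u v : V} (huv : u ≠ v) (φ : V → W) (h : φ u = φ v) (x : V) :
    φ (cmap huv x).1 = φ x := by
  by_cases hx : x = v
  · subst hx; rw [cmap_self]; exact h
  · rw [cmap_of_ne huv hx]

/-- The quotient graph by connected fibres is in the family. -/
theorem quot_mem {F : ∀ V : Type, SimpleGraph V → Prop} (hF : MinorClosed F) {W : Type} [Finite W]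
    (n : ℕ) : ∀ (V : Type) [Finite V] (G : SimpleGraph V) (φ : V → W), Nat.card V = n →
      G.Connected → (∀ a, (G.induce {x | φ x = a}).Connected) → F V G → F W (quot G φ) := by
  induction n with
  | zero =>
    intro V _ G φ hn hG _ _
    have := hG.nonempty
    exact absurd hn Nat.card_pos.ne'
  | succ n ih =>
    intro V _ G φ hn hG hfib hFG
    have hsurj : Function.Surjective φ := fun a => by
      obtain ⟨⟨x, hx⟩⟩ := (hfib a).nonempty
      exact ⟨x, hx⟩
    by_cases hinj : Function.Injective φ
    · refine hF.iso V W G (quot G φ) ⟨⟨Equiv.ofBijective φ ⟨hinj, hsurj⟩, ?_⟩⟩ hFG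
      intro a b
      constructor
      · rintro ⟨_, x, y, hx, hy, hxy⟩
        rw [← hinj hx, ← hinj hy]; exact hxy
      · intro hab
        exact ⟨fun h => hab.ne (hinj h), a, b, rfl, rfl, hab⟩
    · obtain ⟨x, y, hxy, hne⟩ : ∃ x y, φ x = φ y ∧ x ≠ y := by
        simpa [Function.Injective] using hinj
      obtain ⟨u, v, huv, hφ⟩ : ∃ u v, G.Adj u v ∧ φ u = φ v := by
        obtain ⟨w⟩ := (hfib (φ x)).preconnected ⟨x, rfl⟩ ⟨y, hxy.symm⟩
        cases w with
        | nil => exact absurd rfl hne
        | @cons _ z _ h _ => exact ⟨x, z.1, h, z.2.symm⟩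
      have hG' : (contractEdge G u v).Connected :=
        connected_of_map (cmap huv.ne) (fun z => ⟨z.1, cmap_of_ne huv.ne z.2⟩)
          (cmap_adj huv.ne) hG
      have hcard : Nat.card {x : V // x ≠ v} = n := by
        classical
        have := Fintype.ofFinite V
        have h1 : Nat.card {x : V // x ≠ v} = Fintype.card {x : V // x ≠ v} :=
          Nat.card_eq_fintype_card
        rw [h1, Fintype.card_subtype_compl, ← Nat.card_eq_fintype_card, hn]
        simp
      have hfib' : ∀ a, ((contractEdge G u v).induce {x | φ x.1 = a}).Connected := by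
        intro a
        refine connected_of_map (A := G.induce {x | φ x = a})
          (fun z => ⟨cmap huv.ne z.1, (cmap_fib huv.ne φ hφ z.1).trans z.2⟩) ?_ ?_ (hfib a)
        · rintro ⟨z, hz⟩
          exact ⟨⟨z.1, hz⟩, Subtype.ext (cmap_of_ne huv.ne z.2)⟩
        · rintro ⟨z, hz⟩ ⟨z', hz'⟩ hadj
          rcases cmap_adj huv.ne z z' hadj with h | h
          · exact Or.inl (Subtype.ext h)
          · exact Or.inr h
      have hq : quot (contractEdge G u v) (fun x => φ x.1) = quot G φ := by
        ext a b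
        constructor
        · rintro ⟨hab, x, y, hx, hy, _, h | ⟨h1, h2⟩ | ⟨h1, h2⟩⟩
          · exact ⟨hab, x.1, y.1, hx, hy, h⟩
          · exact ⟨hab, v, y.1, by rw [← hx, ← hφ, ← h1], hy, h2⟩
          · exact ⟨hab, x.1, v, hx, by rw [← hy, ← hφ, ← h1], h2.symm⟩
        · rintro ⟨hab, x, y, hx, hy, h⟩
          refine ⟨hab, cmap huv.ne x, cmap huv.ne y, (cmap_fib huv.ne φ hφ x).trans hx,
            (cmap_fib huv.ne φ hφ y).trans hy, ?_⟩
          rcases cmap_adj huv.ne x y h with h' | h'
          · exact absurd ((hx.symm.trans ((cmap_fib huv.ne φ hφ x).symm.trans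
              ((congrArg (fun z => φ z.1) h').trans (cmap_fib huv.ne φ hφ y)))).trans hy) hab
          · exact h'
      rw [← hq]
      exact ih _ (contractEdge G u v) (fun x => φ x.1) hcard hG' hfib'
        (hF.contract V G u v huv hG' hFG)

/-- Deleting edges down to a connected spanning subgraph. -/
theorem subgraph_mem {F : ∀ V : Type, SimpleGraph V → Prop} (hF : MinorClosed F) {W : Type}
    [Finite W] (H : SimpleGraph W) (hH : H.Connected) (n : ℕ) :
    ∀ K : SimpleGraph W, H ≤ K → (K.edgeSet \ H.edgeSet).ncard = n → F W K → F W H := by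
  induction n with
  | zero =>
    intro K hK hn hFK
    rw [Set.ncard_eq_zero (Set.toFinite _), Set.sdiff_eq_empty, edgeSet_subset_edgeSet] at hn
    rw [le_antisymm hK hn]; exact hFK
  | succ n ih =>
    intro K hK hn hFK
    obtain ⟨e, he⟩ : (K.edgeSet \ H.edgeSet).Nonempty := by
      rw [← Set.ncard_pos (Set.toFinite _)]; omega
    have hle : H ≤ K.deleteEdges {e} := by
      rw [← edgeSet_subset_edgeSet, edgeSet_deleteEdges]
      intro e' he'
      exact ⟨edgeSet_subset_edgeSet.2 hK he', fun h => he.2 (by rw [← Set.mem_singleton_iff.1 h]; exact he')⟩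
    refine ih (K.deleteEdges {e}) hle ?_ (hF.deleteEdge W K e he.1 (hH.mono hle) hFK)
    have : (K.deleteEdges {e}).edgeSet \ H.edgeSet = (K.edgeSet \ H.edgeSet) \ {e} := by
      rw [edgeSet_deleteEdges]
      ext z
      simp only [Set.mem_sdiff, Set.mem_singleton_iff]
      tauto
    rw [this, Set.ncard_sdiff_singleton_of_mem he, hn]
    rfl

/-- (G0) -/
theorem minor : MinorStmt := by
  intro F hF V W _ _ G H hG hH hm hFG
  obtain ⟨φ, h1, h2⟩ := exists_model hG hH.nonempty hm
  exact subgraph_mem hF H hH _ (quot G φ) h2 rfl (quot_mem hF _ V G φ rfl hG h1 hFG)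

end Vale.Agent.P235.H134
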