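import Vale.Agent.P235.H134.Grid.Defs

/-!
# The statements of the rows of the excluded grid theorem (typed interface)

Every row proves `theorem … : XStmt`.
-/

namespace Vale.Agent.P235.H134

open SimpleGraph

/-- (G0) a minor-closed family contains every connected minor of its connected members. -/
def MinorStmt : Prop :=
  ∀ (F : ∀ V : Type, SimpleGraph V → Prop), MinorClosed F →
    ∀ (V W : Type) [Finite V] [Finite W] (G : SimpleGraph V) (H : SimpleGraph W),
      G.Connected → H.Connected → IsMinor H G → F V G → F W H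

/-- (G1) Menger. -/
def MengerStmt : Prop :=
  ∀ (V : Type) [Finite V] (G : SimpleGraph V) (A B : Set V) (k : ℕ),
    Linked G A B k ∨ ∃ S : Finset V, S.card < k ∧ Separates G A B S

/-- A connected subgraph `T` (vertex set `W`) of maximum degree at most `3`, a set `C` disjoint
from `W`, and a set `X ⊆ W` of `h` vertices such that any two disjoint subsets `Y, Z` of `X` of the
same size `j ≤ k` are joined by `j` disjoint paths with all inner vertices in `C`. -/
def TreeMesh {V : Type} (G : SimpleGraph V) (k h : ℕ) : Prop :=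
  ∃ (C W : Set V) (T : SimpleGraph V) (X : Finset V),
    T ≤ G ∧ Disjoint W C ∧ (T.induce W).Connected ∧ (∀ v, (T.neighborSet v).ncard ≤ 3) ∧
    (X : Set V) ⊆ W ∧ X.card = h ∧
    ∀ Y Z : Finset V, Y ⊆ X → Z ⊆ X → Disjoint Y Z → Y.card = Z.card → Y.card ≤ k →
      ∃ P : Fin Y.card → Pth G, IsLinkage (Y : Set V) (Z : Set V) P ∧
        ∀ a t, 0 < t → t < (P a).len → (P a).f t ∈ C

/-- (G2) the mesh lemma (uses Menger). -/
def MeshStmt : Prop :=
  ∀ k h : ℕ, 1 ≤ k → k ≤ h → ∀ (V : Type) [Finite V] (G : SimpleGraph V), G.Connected →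
    ¬ TreewidthLE G (h + k) → TreeMesh G k h

/-- (G3) splitting the tree. -/
def SplitStmt : Prop :=
  ∀ (k m : ℕ), 1 ≤ k → ∀ (V : Type) [Finite V] (G : SimpleGraph V),
    TreeMesh G k ((m + 1) * (2 * k)) → HasMesh G k m

/-- (G3') the combinatorial half of (G3). -/
def SplitCombStmt : Prop :=
  ∀ (k m : ℕ), 1 ≤ k → ∀ (V : Type) [Finite V] (T : SimpleGraph V) (W : Set V) (X : Finset V),
    (T.induce W).Connected → (∀ v, (T.neighborSet v).ncard ≤ 3) → (X : Set V) ⊆ W →
    (m + 1) * (2 * k) ≤ X.card →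
    ∃ S : Fin m → Set V, (∀ i, S i ⊆ W) ∧ (∀ i j, i ≠ j → Disjoint (S i) (S j)) ∧
      (∀ i, (T.induce (S i)).Connected) ∧ ∀ i, ∃ Y : Finset V, Y ⊆ X ∧ (Y : Set V) ⊆ S i ∧ Y.card = k

/-- (G4) good tuples: a connected graph with at least `r (r - 1)` vertices contains `r` distinct
vertices such that consecutive ones are joined by a walk avoiding all the others. -/
def GoodTupleStmt : Prop :=
  ∀ (r : ℕ), 2 ≤ r → ∀ (ι : Type) [Fintype ι] (T : SimpleGraph ι), T.Connected →
    r * (r - 1) ≤ Fintype.card ι →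
    ∃ h : Fin r → ι, Function.Injective h ∧
      ∀ (j : ℕ) (hj : j + 1 < r),
        ∃ w : T.Walk (h ⟨j, Nat.lt_of_succ_lt hj⟩) (h ⟨j + 1, hj⟩),
          ∀ i : Fin r, h i ∈ w.support → i.val = j ∨ i.val = j + 1

/-- The configuration of (G5): `q` disjoint horizontal paths `L i`, each divided into `d`
consecutive segments `[b i n, b i (n + 1))`, and `d` disjoint connected sets `U n` such that `U n`
meets every `L i`, and meets it only in its `n`-th segment. -/
def Segments {V : Type} (G : SimpleGraph V) (q d : ℕ) : Prop :=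
  ∃ (L : Fin q → Pth G) (U : Fin d → Set V) (b : Fin q → ℕ → ℕ),
    (∀ i j, i ≠ j → Disjoint (L i).verts (L j).verts) ∧
    (∀ n, (G.induce (U n)).Connected) ∧ (∀ n n', n ≠ n' → Disjoint (U n) (U n')) ∧
    (∀ i, Monotone (b i)) ∧ (∀ i n, ∃ t ≤ (L i).len, (L i).f t ∈ U n) ∧
    ∀ i (n : Fin d), ∀ t ≤ (L i).len, (L i).f t ∈ U n → b i n.val ≤ t ∧ t < b i (n.val + 1)

/-- (G5) the grid from segments (uses (G4)). -/
def GridStmt : Prop :=
  ∀ r : ℕ, 2 ≤ r → ∀ (V : Type) [Finite V] (G : SimpleGraph V),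
    ∀ d : ℕ, r * r * (r * (r - 1)) ^ r ≤ d → Segments G (r * (r - 1)) d → IsMinor (grid r) G

/-- (G6) sparse bipartite graphs have large independent pairs. -/
def BipStmt : Prop :=
  ∀ (q M c : ℕ) (α β : Type) [Fintype α] [Fintype β] (E : α → β → Prop),
    Fintype.card β = M → 2 * q ≤ M → 4 * q ≤ c → 0 < c →
    (∀ a, c * Set.ncard {b | E a b} ≤ M) →
    ∃ (H : Finset β) (U : Finset α), H.card = q ∧ Fintype.card α ≤ 2 * U.card ∧
      ∀ a ∈ U, ∀ b ∈ H, ¬ E a b

/-- (G7b) the core: `M` disjoint `A`–`B` paths `L a`; pairwise disjoint paths `Q x`; every edge of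
the `L`'s which is not an edge of the `Q`'s is needed for `M` disjoint `A`–`B` paths in the union;
`d * d * M` of the `Q`'s meet each of `q + 1` of the `L`'s. Then one finds segments (uses Menger). -/
def CoreStmt : Prop :=
  ∀ (q d M : ℕ), 1 ≤ q → 1 ≤ d → ∀ (V : Type) [Finite V] (G : SimpleGraph V) (A B : Set V)
    (L : Fin M → Pth G) (κ : Type) [Finite κ] (Q : κ → Pth G),
    IsLinkage A B L → (∀ x y, x ≠ y → Disjoint (Q x).verts (Q y).verts) →
    (∀ a t, t < (L a).len → (∀ x, ¬ (Q x).EdgeOf ((L a).f t) ((L a).f (t + 1))) →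
      ¬ Linked (((⨆ x, (Q x).graph) ⊔ ⨆ a, (L a).graph).deleteEdges
        {s((L a).f t, (L a).f (t + 1))}) A B M) →
    ∀ (U : Finset κ) (H : Finset (Fin M)), d * d * M ≤ U.card → q + 1 ≤ H.card →
      (∀ x ∈ U, ∀ a ∈ H, ((Q x).verts ∩ (L a).verts).Nonempty) → Segments G q d

/-- (G7) grid or clique (uses (G5), (G6), (G7b)). -/
def GridOrCliqueStmt : Prop :=
  ∀ r m : ℕ, 2 ≤ r → ∃ k : ℕ, 1 ≤ k ∧ ∀ (V : Type) [Finite V] (G : SimpleGraph V),
    HasMesh G k m → IsMinor (grid r) G ∨ IsMinor (⊤ : SimpleGraph (Fin m)) G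

/-- (G8) The excluded grid theorem. -/
def ExcludedGridStmt : Prop :=
  ∀ r : ℕ, ∃ w : ℕ, ∀ (V : Type) [Finite V] (G : SimpleGraph V), G.Connected →
    ¬ TreewidthLE G w → IsMinor (grid r) G

/-- The theorem on bounded treewidth (#9610). -/
def TwBoundedStmt : Prop :=
  ∀ k : ℕ, ∃ C : ℝ, ∀ (V : Type) [Finite V] (G : SimpleGraph V), G.Connected →
    TreewidthLE G k → DistortionLE G C

/-- The hand-in. -/
def OmittedGridStmt : Prop :=
  ∀ (F : ∀ V : Type, SimpleGraph V → Prop), MinorClosed F →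
    (∃ r : ℕ, 1 ≤ r ∧ ¬ F (Fin r × Fin r) (grid r)) →
    ∃ C : ℝ, ∀ (V : Type) [Finite V] (G : SimpleGraph V), G.Connected → F V G → DistortionLE G C

end Vale.Agent.P235.H134
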