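import Vale.Agent.P235.H134.Grid.Planar
import Vale.Agent.P235.H134.Grid.MinorRow
import Vale.Agent.P235.H134.Grid.BipRow
import Vale.Agent.P235.H154.GridMenger
import Vale.Agent.P235.H154.GridCore
import Vale.Agent.P235.H156.Clique
import Vale.Agent.P235.H250.GridSplit
import Vale.Agent.P235.H469.GridOfSeg
import Vale.Agent.P235.H949.MeshFinal
import Vale.Agent.P235.H205.Grid.PlanarStmt
import Vale.Agent.P235.H957.Final

/-!
# The excluded grid theorem, and the conjecture for the families omitting a planar graph
-/

namespace Vale.Agent.P235.H134

open SimpleGraph

/-- The excluded grid theorem of Robertson and Seymour. -/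
theorem excludedGrid : ExcludedGridStmt :=
  excludedGrid_of (H949.mesh H154.mengerStmt) H250.split
    (H156.gridOrClique bip H154.coreStmt H469.gridOfSegments)

theorem omittedGrid : OmittedGridStmt :=
  omittedGrid_of minor excludedGrid H957.tw_bounded

/-- The Gupta–Newman–Rabinovich–Sinclair conjecture for every minor-closed family omitting a
connected planar graph. -/
theorem omittedPlanar : OmittedPlanarStmt :=
  omittedPlanar_of minor H205.planar omittedGrid

end Vale.Agent.P235.H134
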