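import Vale.Agent.P235.H134.Grid.Assembly

/-!
# Families omitting a planar graph
-/

namespace Vale.Agent.P235.H134

open SimpleGraph

/-- `H` is planar: it can be drawn in the plane `ℝ²` with the vertices as distinct points `p a` and
every edge `e` as an arc `γ e` (a continuous injective image of `[0,1]`) joining the two ends of
`e`, such that an arc contains no vertex except its ends, and two different arcs meet only in
vertices. -/
def Planar {W : Type} (H : SimpleGraph W) : Prop :=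
  ∃ (p : W → ℝ × ℝ) (γ : Sym2 W → ℝ → ℝ × ℝ), Function.Injective p ∧
    (∀ e ∈ H.edgeSet, ContinuousOn (γ e) (Set.Icc 0 1) ∧ Set.InjOn (γ e) (Set.Icc 0 1)) ∧
    (∀ a b, H.Adj a b → ({γ s(a, b) 0, γ s(a, b) 1} : Set (ℝ × ℝ)) = {p a, p b}) ∧
    (∀ e ∈ H.edgeSet, ∀ a, p a ∈ γ e '' Set.Icc 0 1 → a ∈ e) ∧
    (∀ e ∈ H.edgeSet, ∀ e' ∈ H.edgeSet, e ≠ e' →
      γ e '' Set.Icc 0 1 ∩ γ e' '' Set.Icc 0 1 ⊆ Set.range p)

/-- (G9) every finite planar graph is a minor of a grid. -/
def PlanarStmt : Prop :=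
  ∀ (W : Type) [Finite W] (H : SimpleGraph W), Planar H → ∃ r : ℕ, 1 ≤ r ∧ IsMinor H (grid r)

/-- (G9a) the graph-theoretic part of (G9). -/
def PlanarCombStmt : Prop :=
  ∀ (V W : Type) [Finite V] [Finite W] (G : SimpleGraph V) (H : SimpleGraph W) (X : W → Set V)
    (K : Sym2 W → Set V),
    (∀ a, (G.induce (X a)).Connected) → (∀ a b, a ≠ b → Disjoint (X a) (X b)) →
    (∀ e ∈ H.edgeSet, (G.induce (K e)).Connected) →
    (∀ e ∈ H.edgeSet, ∀ e' ∈ H.edgeSet, e ≠ e' → Disjoint (K e) (K e')) →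
    (∀ e ∈ H.edgeSet, ∀ a, a ∈ e ↔ (X a ∩ K e).Nonempty) →
    IsMinor H G

/-- The hand-in, final form: the conjecture for every minor-closed family omitting a (connected)
planar graph. -/
def OmittedPlanarStmt : Prop :=
  ∀ (F : ∀ V : Type, SimpleGraph V → Prop), MinorClosed F →
    (∃ (W : Type) (_ : Finite W) (H : SimpleGraph W), H.Connected ∧ Planar H ∧ ¬ F W H) →
    ∃ C : ℝ, ∀ (V : Type) [Finite V] (G : SimpleGraph V), G.Connected → F V G → DistortionLE G C

theorem omittedPlanar_of (hMinor : MinorStmt) (hP : PlanarStmt) (h : OmittedGridStmt) :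
    OmittedPlanarStmt := by
  rintro F hF ⟨W, hW, H, hH, hpl, hn⟩
  obtain ⟨r, hr, hr'⟩ := hP W H hpl
  exact h F hF ⟨r, hr, fun hF' => hn (hMinor F hF (Fin r × Fin r) W (grid r) H (grid_connected hr)
    hH hr' hF')⟩

end Vale.Agent.P235.H134
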